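import Vale.Agent.P088.H650.CFc
import Vale.Agent.P088.H393.Est3
import Vale.Agent.P088.H442.C.Defs
import Vale.Agent.P088.H501.A12

/-!
# P088, Theorem C, row C_NF: null directions in the frame `e_{i₀}`
-/

open MeasureTheory Set
open scoped ContDiff Matrix

noncomputable section

namespace Vale.Agent.P088.LR.H150

open Vale.Agent.P088.LR Vale.Agent.P088.LR.CF Vale.Agent.P088.LR.CC

variable {n : ℕ}

/-! ## The solutions -/

/-- Coefficients of the gradient. -/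
def yc (i₀ : Fin n) (z : Fin n → ℂ) (c : Ix n → ℂ) (j : Fin n) (k : Ix n) : ℂ :=
  lmz i₀ z k j * c k

theorem rd_yc (i₀ : Fin n) (z : Fin n → ℂ) {c : Ix n → ℂ} (hc : RD c) (j : Fin n) :
    RD (yc i₀ z c j) := by
  have h := H393.rd_add (H393.rd_fr hc (th0 i₀) j) (H393.rd_const_mul hc (z j))
  refine fun m => (h m).congr fun k => ?_
  rw [yc, lmz]
  congr 2
  ring

section sol

variable {z : Fin n → ℂ} {θ : V n} {t : MF n} {q : V n → ℝ} {c : Ix n → ℂ} {u : V n → ℂ}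

theorem sol_fun (S : SolQ z θ t q c u) : u = fun x => H393.EE z x * (1 + Es θ c x) := by
  funext x
  rw [S.val x, H393.EE, H393.LL_apply]

theorem sol_smooth (S : SolQ z θ t q c u) : ContDiff ℝ ∞ u := by
  rw [sol_fun S]
  exact (H393.EE_contDiff z).mul (contDiff_const.add (H501.rowA1 θ c S.rc).1)

theorem sol_pd {i₀ : Fin n} (S : SolQ z (th0 i₀) t q c u) (j : Fin n) (x : V n) :
    pd j u x = H393.EE z x * (z j + Es (th0 i₀) (yc i₀ z c j) x) := by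
  rw [sol_fun S, H393.pd_EE_mul H501.rowA1 z (th0 i₀) 1 S.rc j x, mul_one]
  rfl

end sol

theorem EE_mul {z w : Fin n → ℂ} {ξ : V n}
    (h : ∀ j, z j + w j = -(2 * Real.pi * Complex.I * (ξ j : ℂ))) (x : V n) :
    H393.EE z x * H393.EE w x = ex (-ξ) x := by
  rw [H393.EE, H393.EE, ex, ← Complex.exp_add, H393.LL_apply, H393.LL_apply]
  congr 1
  rw [← Finset.sum_add_distrib]
  push_cast
  rw [Finset.mul_sum]
  refine Finset.sum_congr rfl fun j _ => ?_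
  rw [← add_mul, h j, Pi.neg_apply]
  push_cast
  ring

/-! ## Bilinear sums -/

theorem norm_dsum_le {f g : Fin n → ℂ} {H : Fin n → Fin n → ℂ} {F G a : ℝ} (hF : 0 ≤ F)
    (hf : ∀ i, ‖f i‖ ≤ F) (hg : ∀ i, ‖g i‖ ≤ G) (hH : ∀ i j, ‖H i j‖ ≤ a) :
    ‖∑ i, ∑ j, f i * g j * H i j‖ ≤ (n : ℝ) ^ 2 * (F * G * a) := by
  have h1 : ∀ i j, ‖f i * g j * H i j‖ ≤ F * G * a := by
    intro i j
    have hG : 0 ≤ G := (norm_nonneg _).trans (hg j)
    rw [norm_mul, norm_mul]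
    exact mul_le_mul (mul_le_mul (hf i) (hg j) (norm_nonneg _) hF) (hH i j) (norm_nonneg _)
      (mul_nonneg hF hG)
  calc ‖∑ i, ∑ j, f i * g j * H i j‖ ≤ ∑ _i : Fin n, ∑ _j : Fin n, F * G * a := by
        refine (norm_sum_le _ _).trans (Finset.sum_le_sum fun i _ => ?_)
        exact (norm_sum_le _ _).trans (Finset.sum_le_sum fun j _ => h1 i j)
    _ = (n : ℝ) ^ 2 * (F * G * a) := by
        simp only [Finset.sum_const, Finset.card_univ, Fintype.card_fin, nsmul_eq_mul]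
        ring

/-! ## The identity inserted -/

section key

variable {Ω : Set (V n)} {φ q₀ : V n → ℝ} {t : MF n} {q : V n → ℝ}

theorem sub_cube (B : Bt Ω φ q₀ t q) : Ω ⊆ cube n :=
  (B.sub.trans H650.bal_sub).trans H127.core_sub

theorem vol_le (B : Bt Ω φ q₀ t q) : (volume Ω).toReal ≤ 1 := by
  have h : volume Ω ≤ 1 := by
    rw [← H127.volume_cube (n := n)]
    exact measure_mono (sub_cube B)
  exact ENNReal.toReal_le_of_le_ofReal zero_le_one (by simpa using h)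

theorem vol_lt (B : Bt Ω φ q₀ t q) : volume Ω < ⊤ := by
  have h : volume Ω ≤ 1 := by
    rw [← H127.volume_cube (n := n)]
    exact measure_mono (sub_cube B)
  exact h.trans_lt ENNReal.one_lt_top

theorem ion (B : Bt Ω φ q₀ t q) {f : V n → ℂ} (hf : Continuous f) : IntegrableOn f Ω :=
  (hf.continuousOn.integrableOn_compact H127.isCompact_core).mono_set (B.sub.trans H650.bal_sub)

/-- `∫_Ω Σ z_i w_j ent_ij ex (-ξ)`. -/
theorem int_main (B : Bt Ω φ q₀ t q) (z w : Fin n → ℂ) (ξ : V n) :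
    ∫ x in Ω, ∑ i, ∑ j, z i * w j * (ent t i j x * ex (-ξ) x) =
      ∑ i, ∑ j, z i * w j * ft (ent t i j) ξ := by
  have h0 : ∀ x ∉ Ω, ∑ i, ∑ j, z i * w j * (ent t i j x * ex (-ξ) x) = 0 := by
    intro x hx
    refine Finset.sum_eq_zero fun i _ => Finset.sum_eq_zero fun j _ => ?_
    rw [H127.ent_zero B.off i j hx]
    ring
  rw [setIntegral_eq_integral_of_forall_compl_eq_zero h0]
  have hi : ∀ i j, Integrable fun x => ent t i j x * ex (-ξ) x := fun i j =>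
    H127.integrable_ent B.sm (B.sub.trans H650.bal_sub) B.off i j (H127.ex_contDiff _).continuous
  rw [integral_finsetSum _ fun i _ => integrable_finsetSum _ fun j _ => (hi i j).const_mul _]
  refine Finset.sum_congr rfl fun i _ => ?_
  rw [integral_finsetSum _ fun j _ => (hi i j).const_mul _]
  refine Finset.sum_congr rfl fun j _ => ?_
  rw [integral_const_mul]
  rfl

theorem key (hI : RowIDC) (B : Bt Ω φ q₀ t q) {i₀ : Fin n} {z w : Fin n → ℂ} {ξ : V n}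
    (hzw : ∀ j, z j + w j = -(2 * Real.pi * Complex.I * (ξ j : ℂ))) {c₀ c : Ix n → ℂ}
    {U W : V n → ℂ} (SU : SolQ z (th0 i₀) (fun _ => 1) q₀ c₀ U) (SW : SolQ w (th0 i₀) t q c W)
    {a Z D₁ D₂ P₁ P₂ : ℝ} (ha : 0 ≤ a) (hZ : 0 ≤ Z) (hD₁ : 0 ≤ D₁) (hP₁ : 0 ≤ P₁)
    (he : ∀ i j x, ‖ent t i j x‖ ≤ a) (hq : ∀ x, ‖cx q x - cx q₀ x‖ ≤ a)
    (hz : ∀ j, ‖z j‖ ≤ Z) (hw : ∀ j, ‖w j‖ ≤ Z)
    (h₁ : ∀ j x, ‖Es (th0 i₀) (yc i₀ z c₀ j) x‖ ≤ D₁)
    (h₂ : ∀ j x, ‖Es (th0 i₀) (yc i₀ w c j) x‖ ≤ D₂)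
    (p₁ : ∀ x, ‖1 + Es (th0 i₀) c₀ x‖ ≤ P₁) (p₂ : ∀ x, ‖1 + Es (th0 i₀) c x‖ ≤ P₂) :
    ‖∑ i, ∑ j, z i * w j * ft (ent t i j) ξ‖ ≤
      (n : ℝ) ^ 2 * (a * (Z * D₂ + D₁ * Z + D₁ * D₂)) + a * (P₁ * P₂) := by
  set F : V n → ℂ := fun x => (∑ i, ∑ j, (((t x - 1) i j : ℝ) : ℂ) * pd i U x * pd j W x) +
    ((q x - q₀ x : ℝ) : ℂ) * U x * W x with hF
  set G : V n → ℂ := fun x => ∑ i, ∑ j, z i * w j * (ent t i j x * ex (-ξ) x) with hG
  have sU := sol_smooth SU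
  have sW := sol_smooth SW
  have cpU : ∀ i, Continuous (pd i U) := fun i => (H776.pd_contDiff sU i).continuous
  have cpW : ∀ i, Continuous (pd i W) := fun i => (H776.pd_contDiff sW i).continuous
  have ce : ∀ i j, Continuous (ent t i j) := fun i j => (H127.ent_contDiff B.sm i j).continuous
  have c1 : Continuous fun x => ∑ i, ∑ j, (((t x - 1) i j : ℝ) : ℂ) * pd i U x * pd j W x :=
    continuous_finsetSum _ fun i _ => continuous_finsetSum _ fun j _ =>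
      ((ce i j).mul (cpU i)).mul (cpW j)
  have cq : Continuous fun x => ((q x - q₀ x : ℝ) : ℂ) :=
    Complex.continuous_ofReal.comp (B.sq.continuous.sub B.ba.sq.continuous)
  have c2 : Continuous fun x => ((q x - q₀ x : ℝ) : ℂ) * U x * W x :=
    (cq.mul sU.continuous).mul sW.continuous
  have cF : Continuous F := c1.add c2
  have cG : Continuous G := continuous_finsetSum _ fun i _ => continuous_finsetSum _ fun j _ =>
    continuous_const.mul ((ce i j).mul (H127.ex_contDiff _).continuous)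
  have hF0 : ∫ x in Ω, F x = 0 := by
    have h := hI Ω φ q₀ t q B U W sU sW (fun x hx => SU.eq x (sub_cube B hx))
      (fun x hx => SW.eq x (sub_cube B hx))
    rw [hF, integral_add (ion B c1) (ion B c2)]
    exact h
  have hG1 : ∫ x in Ω, G x = ∫ x in Ω, (G x - F x) := by
    rw [integral_sub (ion B cG) (ion B cF), hF0, sub_zero]
  rw [← int_main B z w ξ]
  change ‖∫ x in Ω, G x‖ ≤ _
  rw [hG1]
  set K : ℝ := (n : ℝ) ^ 2 * (a * (Z * D₂ + D₁ * Z + D₁ * D₂)) + a * (P₁ * P₂) with hK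
  have hx : ∀ x, ‖G x - F x‖ ≤ K := by
    intro x
    have e1 : F x = ex (-ξ) x * ((∑ i, ∑ j, ent t i j x *
        ((z i + Es (th0 i₀) (yc i₀ z c₀ i) x) * (w j + Es (th0 i₀) (yc i₀ w c j) x))) +
        (cx q x - cx q₀ x) * ((1 + Es (th0 i₀) c₀ x) * (1 + Es (th0 i₀) c x))) := by
      rw [hF, ← EE_mul hzw x]
      simp only [sol_pd SU, sol_pd SW]
      rw [mul_add, Finset.mul_sum]
      congr 1
      · refine Finset.sum_congr rfl fun i _ => ?_
        rw [Finset.mul_sum]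
        refine Finset.sum_congr rfl fun j _ => ?_
        have h3 : (((t x - 1) i j : ℝ) : ℂ) = ent t i j x := rfl
        rw [h3]
        ring
      · rw [congrFun (sol_fun SU) x, congrFun (sol_fun SW) x, cx, cx]
        push_cast
        ring
    have e2 : G x - F x = -(ex (-ξ) x * ((∑ i, ∑ j, ent t i j x *
        (z i * Es (th0 i₀) (yc i₀ w c j) x + Es (th0 i₀) (yc i₀ z c₀ i) x * w j +
          Es (th0 i₀) (yc i₀ z c₀ i) x * Es (th0 i₀) (yc i₀ w c j) x)) +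
        (cx q x - cx q₀ x) * ((1 + Es (th0 i₀) c₀ x) * (1 + Es (th0 i₀) c x)))) := by
      have e3 : G x = ex (-ξ) x * ∑ i, ∑ j, ent t i j x * (z i * w j) := by
        rw [hG, Finset.mul_sum]
        refine Finset.sum_congr rfl fun i _ => ?_
        rw [Finset.mul_sum]
        exact Finset.sum_congr rfl fun j _ => by ring
      have e4 : (∑ i, ∑ j, ent t i j x *
          ((z i + Es (th0 i₀) (yc i₀ z c₀ i) x) * (w j + Es (th0 i₀) (yc i₀ w c j) x))) =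
          (∑ i, ∑ j, ent t i j x * (z i * w j)) + ∑ i, ∑ j, ent t i j x *
        (z i * Es (th0 i₀) (yc i₀ w c j) x + Es (th0 i₀) (yc i₀ z c₀ i) x * w j +
          Es (th0 i₀) (yc i₀ z c₀ i) x * Es (th0 i₀) (yc i₀ w c j) x) := by
        rw [← Finset.sum_add_distrib]
        refine Finset.sum_congr rfl fun i _ => ?_
        rw [← Finset.sum_add_distrib]
        exact Finset.sum_congr rfl fun j _ => by ring
      rw [e1, e3, e4]
      ring
    rw [e2, norm_neg, norm_mul, H127.ex_norm, one_mul]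
    refine (norm_add_le _ _).trans (add_le_add ?_ ?_)
    · calc ‖∑ i, ∑ j, ent t i j x *
          (z i * Es (th0 i₀) (yc i₀ w c j) x + Es (th0 i₀) (yc i₀ z c₀ i) x * w j +
            Es (th0 i₀) (yc i₀ z c₀ i) x * Es (th0 i₀) (yc i₀ w c j) x)‖
          ≤ ∑ _i : Fin n, ∑ _j : Fin n, a * (Z * D₂ + D₁ * Z + D₁ * D₂) := by
            refine (norm_sum_le _ _).trans (Finset.sum_le_sum fun i _ => ?_)
            refine (norm_sum_le _ _).trans (Finset.sum_le_sum fun j _ => ?_)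
            rw [norm_mul]
            refine mul_le_mul (he i j x) ?_ (norm_nonneg _) ha
            refine (norm_add₃_le ..).trans (add_le_add (add_le_add ?_ ?_) ?_)
            · rw [norm_mul]; exact mul_le_mul (hz i) (h₂ j x) (norm_nonneg _) hZ
            · rw [norm_mul]; exact mul_le_mul (h₁ i x) (hw j) (norm_nonneg _) hD₁
            · rw [norm_mul]; exact mul_le_mul (h₁ i x) (h₂ j x) (norm_nonneg _) hD₁
        _ = _ := by
            simp only [Finset.sum_const, Finset.card_univ, Fintype.card_fin, nsmul_eq_mul]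
            ring
    · rw [norm_mul, norm_mul]
      exact mul_le_mul (hq x) (mul_le_mul (p₁ x) (p₂ x) (norm_nonneg _) hP₁)
        (mul_nonneg (norm_nonneg _) (norm_nonneg _)) ha
  have hK0 : 0 ≤ K := (norm_nonneg _).trans (hx 0)
  refine (norm_setIntegral_le_of_norm_le_const (vol_lt B) fun x _ => hx x).trans ?_
  have h6 := vol_le B
  have h7 : volume.real Ω = (volume Ω).toReal := rfl
  rw [h7]
  nlinarith

end key

/-! ## The frequencies -/

theorem nr_sq (ξ : V n) : nr ξ ^ 2 = ∑ j, ξ j ^ 2 :=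
  Real.sq_sqrt (Finset.sum_nonneg fun _ _ => sq_nonneg _)

theorem nr_add {ξ p : V n} (hp : nr p = 1) (hxp : ∑ j, p j * ξ j = 0) (r X : ℝ) (hX : 0 ≤ X)
    (hr : r ^ 2 = X ^ 2 - nr ξ ^ 2) : nr (fun j => ξ j + r * p j) = X := by
  have h1 : ∑ j, (ξ j + r * p j) ^ 2 = X ^ 2 := by
    have h2 : ∀ j, (ξ j + r * p j) ^ 2 = ξ j ^ 2 + 2 * r * (p j * ξ j) + r ^ 2 * p j ^ 2 :=
      fun j => by ring
    rw [Finset.sum_congr rfl fun j _ => h2 j, Finset.sum_add_distrib, Finset.sum_add_distrib,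
      ← Finset.mul_sum, ← Finset.mul_sum, hxp, ← nr_sq ξ, ← nr_sq p, hp, hr]
    ring
  rw [nr, h1, Real.sqrt_sq hX]

/-- The algebraic identity. -/
theorem alg {i₀ : Fin n} {ξ p : V n} {X ρ : ℝ} {H : Fin n → Fin n → ℂ}
    (hH : ∀ i j, H i j = H j i) (z w : Fin n → ℂ)
    (hz : ∀ j, z j = Real.pi * (X * H650.dl i₀ j + Complex.I * ρ * p j - Complex.I * ξ j))
    (hw : ∀ j, w j = -(Real.pi * (X * H650.dl i₀ j + Complex.I * ρ * p j + Complex.I * ξ j))) :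
    (Real.pi : ℂ) ^ 2 * ((X : ℂ) ^ 2 * ∑ i, ∑ j, (H650.dl i₀ i + Complex.I * p i) *
        (H650.dl i₀ j + Complex.I * p j) * H i j) =
      -(∑ i, ∑ j, z i * w j * H i j) + -((Real.pi : ℂ) ^ 2 * ∑ i, ∑ j, (ξ i : ℂ) * ξ j * H i j) +
        -((Real.pi : ℂ) ^ 2 * ((2 * Complex.I * ((ρ - X : ℝ) : ℂ) * X) *
          ∑ i, ∑ j, (H650.dl i₀ i + Complex.I * p i) * (p j : ℂ) * H i j)) +
        (Real.pi : ℂ) ^ 2 * (((ρ - X : ℝ) : ℂ) ^ 2 * ∑ i, ∑ j, (p i : ℂ) * p j * H i j) := by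
  set A : Fin n → ℂ := fun j => X * H650.dl i₀ j + Complex.I * ρ * p j with hA
  set v : Fin n → ℂ := fun j => H650.dl i₀ j + Complex.I * p j with hv
  have s1 : ∑ i, ∑ j, A i * (ξ j : ℂ) * H i j = ∑ i, ∑ j, (ξ i : ℂ) * A j * H i j := by
    rw [Finset.sum_comm]
    refine Finset.sum_congr rfl fun i _ => Finset.sum_congr rfl fun j _ => ?_
    rw [hH j i]
    ring
  have s2 : ∑ i, ∑ j, v i * (p j : ℂ) * H i j = ∑ i, ∑ j, (p i : ℂ) * v j * H i j := by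
    rw [Finset.sum_comm]
    refine Finset.sum_congr rfl fun i _ => Finset.sum_congr rfl fun j _ => ?_
    rw [hH j i]
    ring
  have h1 : ∑ i, ∑ j, z i * w j * H i j =
      -((Real.pi : ℂ) ^ 2) * (∑ i, ∑ j, A i * A j * H i j)
        + -((Real.pi : ℂ) ^ 2 * Complex.I) * (∑ i, ∑ j, A i * (ξ j : ℂ) * H i j)
        + ((Real.pi : ℂ) ^ 2 * Complex.I) * (∑ i, ∑ j, (ξ i : ℂ) * A j * H i j)
        + -((Real.pi : ℂ) ^ 2) * ∑ i, ∑ j, (ξ i : ℂ) * ξ j * H i j := by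
    simp only [Finset.mul_sum]
    rw [← Finset.sum_add_distrib, ← Finset.sum_add_distrib, ← Finset.sum_add_distrib]
    refine Finset.sum_congr rfl fun i _ => ?_
    rw [← Finset.sum_add_distrib, ← Finset.sum_add_distrib, ← Finset.sum_add_distrib]
    refine Finset.sum_congr rfl fun j _ => ?_
    have e1 : z i = Real.pi * (A i - Complex.I * ξ i) := by rw [hz i]
    have e2 : w j = -(Real.pi * (A j + Complex.I * ξ j)) := by rw [hw j]
    rw [e1, e2]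
    linear_combination (Real.pi : ℂ) ^ 2 * (ξ i : ℂ) * (ξ j : ℂ) * H i j * Complex.I_sq
  have h2 : ∑ i, ∑ j, A i * A j * H i j = (X : ℂ) ^ 2 * (∑ i, ∑ j, v i * v j * H i j)
      + (Complex.I * ((ρ - X : ℝ) : ℂ) * X) * (∑ i, ∑ j, v i * (p j : ℂ) * H i j)
      + (Complex.I * ((ρ - X : ℝ) : ℂ) * X) * (∑ i, ∑ j, (p i : ℂ) * v j * H i j)
      + -((ρ - X : ℝ) : ℂ) ^ 2 * ∑ i, ∑ j, (p i : ℂ) * p j * H i j := by
    simp only [Finset.mul_sum]
    rw [← Finset.sum_add_distrib, ← Finset.sum_add_distrib, ← Finset.sum_add_distrib]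
    refine Finset.sum_congr rfl fun i _ => ?_
    rw [← Finset.sum_add_distrib, ← Finset.sum_add_distrib, ← Finset.sum_add_distrib]
    refine Finset.sum_congr rfl fun j _ => ?_
    have e3 : ∀ j, A j = X * v j + Complex.I * ((ρ - X : ℝ) : ℂ) * p j := by
      intro j
      simp only [hA, hv]
      push_cast
      ring
    rw [e3 i, e3 j]
    linear_combination ((ρ - X : ℝ) : ℂ) ^ 2 * (p i : ℂ) * (p j : ℂ) * H i j * Complex.I_sq
  rw [h1, h2, s1, s2]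
  ring

theorem ft_ent_le {Ω : Set (V n)} {φ q₀ : V n → ℝ} {t : MF n} {q : V n → ℝ} (B : Bt Ω φ q₀ t q)
    {a : ℝ} (he : ∀ i j x, ‖ent t i j x‖ ≤ a) (ξ : V n) (i j : Fin n) :
    ‖ft (ent t i j) ξ‖ ≤ a := by
  have h0 : ∀ x ∉ Ω, ent t i j x * ex (-ξ) x = 0 := by
    intro x hx
    rw [H127.ent_zero B.off i j hx, zero_mul]
  have ha : 0 ≤ a := (norm_nonneg _).trans (he i j 0)
  rw [ft, ← setIntegral_eq_integral_of_forall_compl_eq_zero h0]
  refine (norm_setIntegral_le_of_norm_le_const (C := a) (vol_lt B) fun x _ => ?_).trans ?_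
  · rw [norm_mul, H127.ex_norm, mul_one]
    exact he i j x
  · have h6 := vol_le B
    have h7 : volume.real Ω = (volume Ω).toReal := rfl
    rw [h7]
    nlinarith

theorem cl_zero {F : Type*} [NormedAddCommGroup F] [NormedSpace ℝ F] {k : ℕ} {a : ℝ}
    {f : V n → F} (h : Cl k a f) (x : V n) : ‖f x‖ ≤ a := by
  have := h 0 (Nat.zero_le _) x
  rwa [norm_iteratedFDeriv_zero] at this

theorem arith1 {N C₁ X a T : ℝ} (hN : 0 ≤ N) (hC : 1 ≤ C₁) (hX : C₁ ≤ X) (ha : 0 ≤ a)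
    (hT : T ≤ N * (a * (2 * Real.pi * X * (C₁ + C₁ * X ^ 2 * a) + C₁ * (2 * Real.pi * X) +
      C₁ * (C₁ + C₁ * X ^ 2 * a))) + a * (2 * 3)) :
    T ≤ (14 * N * C₁ + 6) * (a * X + X ^ 3 * a ^ 2) := by
  have hX0 : 0 ≤ X := by linarith
  have hX1 : 1 ≤ X := by linarith
  have hpi := Real.pi_pos
  have hpi2 := Real.pi_lt_d2
  set Y : ℝ := 1 + X ^ 2 * a with hY
  have hY1 : 1 ≤ Y := by
    have : 0 ≤ X ^ 2 * a := by positivity
    linarith
  have e1 : 2 * Real.pi * X * (C₁ + C₁ * X ^ 2 * a) + C₁ * (2 * Real.pi * X) +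
      C₁ * (C₁ + C₁ * X ^ 2 * a) = C₁ * (2 * Real.pi * X * Y + 2 * Real.pi * X + C₁ * Y) := by
    rw [hY]; ring
  have e2 : 2 * Real.pi * X * Y + 2 * Real.pi * X + C₁ * Y ≤ 14 * (X * Y) := by
    have h1 : 2 * Real.pi * X ≤ 2 * Real.pi * X * Y := le_mul_of_one_le_right (by positivity) hY1
    have h2 : C₁ * Y ≤ X * Y := mul_le_mul_of_nonneg_right hX (by linarith)
    have h3 : 0 ≤ X * Y := by positivity
    nlinarith
  have e3 : N * (a * (C₁ * (2 * Real.pi * X * Y + 2 * Real.pi * X + C₁ * Y))) ≤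
      N * (a * (C₁ * (14 * (X * Y)))) :=
    mul_le_mul_of_nonneg_left (mul_le_mul_of_nonneg_left
      (mul_le_mul_of_nonneg_left e2 (by linarith)) ha) hN
  have e4 : a * (2 * 3) ≤ 6 * (a * X + X ^ 3 * a ^ 2) := by
    have h1 : a ≤ a * X := le_mul_of_one_le_right ha hX1
    have h2 : 0 ≤ X ^ 3 * a ^ 2 := by positivity
    linarith
  have e5 : N * (a * (C₁ * (14 * (X * Y)))) = 14 * N * C₁ * (a * X + X ^ 3 * a ^ 2) := by
    rw [hY]; ring
  rw [e1] at hT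
  linarith

theorem arith2 {N C₁ X a m T Q : ℝ} (hN : 0 ≤ N) (hC : 1 ≤ C₁) (hX : 1 ≤ X) (ha : 0 ≤ a)
    (hm : 0 ≤ m) (hT0 : 0 ≤ T) (hT : T ≤ (14 * N * C₁ + 6) * (a * X + X ^ 3 * a ^ 2))
    (hQ : Real.pi ^ 2 * (X ^ 2 * Q) ≤ T + Real.pi ^ 2 * (6 * N * m ^ 2 * a)) :
    Q ≤ (14 * N * C₁ + 6 + 6 * N + C₁) * (1 + m) ^ 2 * (a / X + X * a ^ 2) := by
  have hX0 : 0 < X := by linarith
  have hpi : (1 : ℝ) ≤ Real.pi ^ 2 := by nlinarith [Real.pi_gt_three]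
  have h1 : X ^ 2 * Q ≤ T + 6 * N * m ^ 2 * a := by
    by_contra hn
    push Not at hn
    have h2 : Real.pi ^ 2 * (T + 6 * N * m ^ 2 * a) < Real.pi ^ 2 * (X ^ 2 * Q) :=
      mul_lt_mul_of_pos_left hn (by linarith)
    nlinarith
  set S : ℝ := a * X + X ^ 3 * a ^ 2 with hS
  have hS0 : 0 ≤ S := by positivity
  have haS : a ≤ S := by
    have h3 : a ≤ a * X := le_mul_of_one_le_right ha hX
    have h4 : 0 ≤ X ^ 3 * a ^ 2 := by positivity
    linarith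
  have h5 : X ^ 2 * Q ≤ (14 * N * C₁ + 6 + 6 * N + C₁) * (1 + m) ^ 2 * S := by
    have h6 : 6 * N * m ^ 2 * a ≤ 6 * N * m ^ 2 * S := mul_le_mul_of_nonneg_left haS (by positivity)
    have h7 : (14 * N * C₁ + 6) * S ≤ (14 * N * C₁ + 6) * (1 + m) ^ 2 * S := by
      refine mul_le_mul_of_nonneg_right ?_ hS0
      refine le_mul_of_one_le_right (by positivity) ?_
      nlinarith
    have h8 : 6 * N * m ^ 2 * S ≤ 6 * N * (1 + m) ^ 2 * S := by
      refine mul_le_mul_of_nonneg_right (mul_le_mul_of_nonneg_left ?_ (by positivity)) hS0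
      nlinarith
    have h9 : 0 ≤ C₁ * (1 + m) ^ 2 * S := by positivity
    nlinarith
  have h10 : (14 * N * C₁ + 6 + 6 * N + C₁) * (1 + m) ^ 2 * (a / X + X * a ^ 2) =
      ((14 * N * C₁ + 6 + 6 * N + C₁) * (1 + m) ^ 2 * S) / X ^ 2 := by
    rw [hS]
    field_simp
  rw [h10, le_div_iff₀ (by positivity)]
  linarith

theorem norm_fin {i₀ : Fin n} {ξ p : V n} {X ρ a : ℝ} {H : Fin n → Fin n → ℂ}
    (hH : ∀ i j, H i j = H j i) (hHn : ∀ i j, ‖H i j‖ ≤ a) (hp : nr p = 1) (hX0 : 0 ≤ X)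
    (hρX : ρ ≤ X) (hρm : (X - ρ) * X ≤ nr ξ ^ 2) (hρm2 : (X - ρ) ^ 2 ≤ nr ξ ^ 2)
    (z w : Fin n → ℂ)
    (hz : ∀ j, z j = Real.pi * (X * H650.dl i₀ j + Complex.I * ρ * p j - Complex.I * ξ j))
    (hw : ∀ j, w j = -(Real.pi * (X * H650.dl i₀ j + Complex.I * ρ * p j + Complex.I * ξ j))) :
    Real.pi ^ 2 * (X ^ 2 * ‖∑ i, ∑ j, (H650.dl i₀ i + Complex.I * p i) *
        (H650.dl i₀ j + Complex.I * p j) * H i j‖) ≤
      ‖∑ i, ∑ j, z i * w j * H i j‖ + Real.pi ^ 2 * (6 * (n : ℝ) ^ 2 * nr ξ ^ 2 * a) := by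
  have hal := alg (X := X) (ρ := ρ) hH z w hz hw
  set Q : ℂ := ∑ i, ∑ j, (H650.dl i₀ i + Complex.I * p i) * (H650.dl i₀ j + Complex.I * p j) * H i j
    with hQ
  set N : ℝ := (n : ℝ) ^ 2 with hN
  set m : ℝ := nr ξ with hmd
  have hm : 0 ≤ m := H650.nr_nonneg ξ
  have pj : ∀ j, ‖(p j : ℂ)‖ ≤ 1 := fun j => by
    rw [Complex.norm_real, Real.norm_eq_abs, ← hp]
    exact H650.abs_le_nr p j
  have xj : ∀ j, ‖(ξ j : ℂ)‖ ≤ m := fun j => by
    rw [Complex.norm_real, Real.norm_eq_abs]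
    exact H650.abs_le_nr ξ j
  have vj : ∀ j, ‖H650.dl i₀ j + Complex.I * p j‖ ≤ 2 := fun j => by
    refine (norm_add_le _ _).trans ?_
    have h8 : ‖H650.dl i₀ j‖ ≤ 1 := by
      unfold H650.dl
      split_ifs <;> simp
    have h9 : ‖Complex.I * (p j : ℂ)‖ ≤ 1 := by
      rw [norm_mul, Complex.norm_I, one_mul]
      exact pj j
    linarith
  have s1 := norm_dsum_le (H := H) hm xj xj hHn
  have s2 := norm_dsum_le (H := H) (by norm_num : (0 : ℝ) ≤ 2) vj pj hHn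
  have s3 := norm_dsum_le (H := H) zero_le_one pj pj hHn
  set S1 : ℂ := ∑ i, ∑ j, (ξ i : ℂ) * ξ j * H i j with hS1
  set S2 : ℂ := ∑ i, ∑ j, (H650.dl i₀ i + Complex.I * p i) * (p j : ℂ) * H i j with hS2
  set S3 : ℂ := ∑ i, ∑ j, (p i : ℂ) * p j * H i j with hS3
  set T : ℂ := ∑ i, ∑ j, z i * w j * H i j with hT
  have hpi : ‖((Real.pi : ℂ) ^ 2)‖ = Real.pi ^ 2 := by
    rw [norm_pow, Complex.norm_real, Real.norm_of_nonneg Real.pi_pos.le]
  have l7 : 0 ≤ Real.pi ^ 2 := by positivity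
  have l1 : Real.pi ^ 2 * (X ^ 2 * ‖Q‖) = ‖(Real.pi : ℂ) ^ 2 * ((X : ℂ) ^ 2 * Q)‖ := by
    rw [norm_mul, norm_mul, hpi, norm_pow, Complex.norm_real, Real.norm_of_nonneg hX0]
  have m1 : ‖(Real.pi : ℂ) ^ 2 * S1‖ ≤ Real.pi ^ 2 * (N * (m * m * a)) := by
    rw [norm_mul, hpi]
    exact mul_le_mul_of_nonneg_left s1 l7
  have l3 : ‖((ρ - X : ℝ) : ℂ)‖ = X - ρ := by
    rw [Complex.norm_real, Real.norm_eq_abs, abs_sub_comm]
    exact abs_of_nonneg (by linarith)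
  have m2 : ‖(Real.pi : ℂ) ^ 2 * ((2 * Complex.I * ((ρ - X : ℝ) : ℂ) * X) * S2)‖ ≤
      Real.pi ^ 2 * (2 * m ^ 2 * (N * (2 * 1 * a))) := by
    rw [norm_mul, hpi]
    refine mul_le_mul_of_nonneg_left ?_ l7
    rw [norm_mul]
    refine mul_le_mul ?_ s2 (norm_nonneg _) (by positivity)
    rw [norm_mul, norm_mul, norm_mul, Complex.norm_I, l3, Complex.norm_real,
      Real.norm_of_nonneg hX0]
    have l2 : ‖(2 : ℂ)‖ = 2 := by simp
    rw [l2]
    linarith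
  have m3 : ‖(Real.pi : ℂ) ^ 2 * (((ρ - X : ℝ) : ℂ) ^ 2 * S3)‖ ≤
      Real.pi ^ 2 * (m ^ 2 * (N * (1 * 1 * a))) := by
    rw [norm_mul, hpi]
    refine mul_le_mul_of_nonneg_left ?_ l7
    rw [norm_mul, norm_pow, l3]
    exact mul_le_mul hρm2 s3 (norm_nonneg _) (by positivity)
  rw [l1, hal]
  refine (norm_add_le _ _).trans ?_
  refine (add_le_add (norm_add₃_le ..) le_rfl).trans ?_
  rw [norm_neg, norm_neg, norm_neg]
  linarith

/-- Row C_NF. -/
theorem nf (hC : RowCGC) (hI : RowIDC) (hB : RowBAC) : RowNFC := by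
  intro n B
  obtain ⟨C₁, hC₁, h⟩ := hC n 0 B
  set N : ℝ := (n : ℝ) ^ 2 with hN
  have hN0 : 0 ≤ N := by positivity
  refine ⟨14 * N * C₁ + 6 + 6 * N + C₁, ?_, ?_⟩
  · have : 0 ≤ 14 * N * C₁ := by positivity
    linarith
  intro i₀ ξ p hξ hp0 hp hpξ X hCX h2 Ω φ q₀ t q b hq₀ a ha hSz hXa
  have h14 : 0 ≤ 14 * N * C₁ := by positivity
  have hX1 : C₁ ≤ X := by linarith
  have hX : 1 ≤ X := by linarith
  have hX0 : 0 < X := by linarith
  have hXa1 : C₁ * X * a ≤ 1 := by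
    refine le_trans ?_ hXa
    refine mul_le_mul_of_nonneg_right (mul_le_mul_of_nonneg_right ?_ hX0.le) ha
    linarith
  have hm : 0 ≤ nr ξ := H650.nr_nonneg ξ
  set m : ℝ := nr ξ with hmd
  have hρ0 : 0 ≤ X ^ 2 - m ^ 2 := by nlinarith
  set ρ : ℝ := √(X ^ 2 - m ^ 2) with hρd
  have hρ : ρ ^ 2 = X ^ 2 - m ^ 2 := Real.sq_sqrt hρ0
  have hρn : 0 ≤ ρ := Real.sqrt_nonneg _
  have hρX : ρ ≤ X := by nlinarith
  have hρm : (X - ρ) * X ≤ m ^ 2 := by nlinarith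
  have hρm2 : (X - ρ) ^ 2 ≤ m ^ 2 := by nlinarith
  set ξ₁ : V n := fun j => ξ j + -ρ * p j with hξ₁
  set ξ₂ : V n := fun j => ξ j + ρ * p j with hξ₂
  have n1 : nr ξ₁ = X := nr_add hp hpξ (-ρ) X hX0.le (by rw [neg_sq]; exact hρ)
  have n2 : nr ξ₂ = X := nr_add hp hpξ ρ X hX0.le hρ
  have o1 : ξ₁ i₀ = 0 := by simp only [hξ₁, hξ, hp0]; ring
  have o2 : ξ₂ i₀ = 0 := by simp only [hξ₂, hξ, hp0]; ring
  have bc : ∀ x ∉ core n, x ∉ bal n := fun x hx hb => hx (H650.bal_sub hb)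
  have b3 := hB.2.2.1 Ω φ q₀ t q b
  have t1 : ∀ x ∉ core n, t x = 1 := fun x hx => b.off x fun hΩ => bc x hx (b.sub hΩ)
  have q1 : ∀ x ∉ core n, q₀ x = 0 := fun x hx => b3.1 x (bc x hx)
  have q2 : ∀ x ∉ core n, q x = 0 := fun x hx => b3.2.1 x (bc x hx)
  have hq₀' : Cl (0 + n + 1) B (cx q₀) := by rw [zero_add]; exact hq₀
  have hSz' : Sz (0 + n + 1) a t q₀ q := by rw [zero_add]; exact hSz
  obtain ⟨c₁, -, U, -, SU, -, hc₁, hy₁, -, -⟩ := h i₀ 1 ξ₁ (Or.inl rfl) o1 (by rw [n1]; exact hX1) t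
    q₀ q b.sm b.ba.sq b.sq t1 q1 q2 hq₀' a ha hSz' (by rw [n1]; exact hXa1)
  obtain ⟨d, c, U', W, SU', SW, hd, hyd, hcd, hycd⟩ := h i₀ (-1) ξ₂ (Or.inr rfl) o2
    (by rw [n2]; exact hX1) t q₀ q b.sm b.ba.sq b.sq t1 q1 q2 hq₀' a ha hSz'
    (by rw [n2]; exact hXa1)
  rw [n1] at hc₁
  rw [n2] at hd hcd hycd
  have he : ∀ i j x, ‖ent t i j x‖ ≤ a := fun i j x => cl_zero (hSz.1 i j) x
  have hqq : ∀ x, ‖cx q x - cx q₀ x‖ ≤ a := fun x => cl_zero hSz.2 x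
  have zz1 : ∀ j, zs 1 i₀ ξ₁ j =
      Real.pi * (X * H650.dl i₀ j + Complex.I * ρ * p j - Complex.I * ξ j) := by
    intro j
    rw [H650.zs_eq, n1]
    simp only [hξ₁]
    push_cast
    ring
  have zz2 : ∀ j, zs (-1) i₀ ξ₂ j =
      -(Real.pi * (X * H650.dl i₀ j + Complex.I * ρ * p j + Complex.I * ξ j)) := by
    intro j
    rw [H650.zs_eq, n2]
    simp only [hξ₂]
    push_cast
    ring
  have hzw : ∀ j, zs 1 i₀ ξ₁ j + zs (-1) i₀ ξ₂ j = -(2 * Real.pi * Complex.I * (ξ j : ℂ)) := by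
    intro j
    rw [zz1, zz2]
    ring
  have hXX : C₁ / X ≤ 1 := by rw [div_le_one hX0]; exact hX1
  have hz1 : ∀ j, ‖zs 1 i₀ ξ₁ j‖ ≤ 2 * Real.pi * X := fun j => by
    have := H650.zs_norm (Or.inl rfl) i₀ ξ₁ j
    rwa [n1] at this
  have hz2 : ∀ j, ‖zs (-1) i₀ ξ₂ j‖ ≤ 2 * Real.pi * X := fun j => by
    have := H650.zs_norm (Or.inr rfl) i₀ ξ₂ j
    rwa [n2] at this
  have hK := key hI b hzw SU SW (a := a) (Z := 2 * Real.pi * X) (D₁ := C₁)
    (D₂ := C₁ + C₁ * X ^ 2 * a) (P₁ := 2) (P₂ := 3) ha (by positivity) (by linarith) (by norm_num)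
    he hqq hz1 hz2
    (fun j x => (H127.es_bound (rd_yc i₀ _ SU.rc j) _ x).trans (hy₁ j))
    (fun j x => by
      rw [H650.es_split (rd_yc i₀ (zs (-1) i₀ ξ₂) SW.rc j) (rd_yc i₀ (zs (-1) i₀ ξ₂) SU'.rc j)]
      refine (norm_add_le _ _).trans (add_le_add ?_ ?_)
      · exact (H127.es_bound (rd_yc i₀ _ SU'.rc j) _ x).trans (hyd j)
      · have hr : (fun k => yc i₀ (zs (-1) i₀ ξ₂) c j k - yc i₀ (zs (-1) i₀ ξ₂) d j k) =
            fun k => lmz i₀ (zs (-1) i₀ ξ₂) k j * (c k - d k) := by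
          funext k
          simp only [yc]
          ring
        refine (H127.es_bound (H650.rd_sub (rd_yc i₀ _ SW.rc j) (rd_yc i₀ _ SU'.rc j)) _ x).trans ?_
        rw [hr]
        exact hycd j)
    (fun x => by
      refine (norm_add_le _ _).trans ?_
      have h5 := (H127.es_bound SU.rc (th0 i₀) x).trans hc₁
      rw [norm_one]
      linarith)
    (fun x => by
      rw [H650.es_split SW.rc SU'.rc]
      refine (norm_add_le _ _).trans ?_
      have h5 := (H127.es_bound SU'.rc (th0 i₀) x).trans hd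
      have h6 := (H127.es_bound (H650.rd_sub SW.rc SU'.rc) (th0 i₀) x).trans hcd
      have h7 := norm_add_le (Es (th0 i₀) d x) (Es (th0 i₀) (fun k => c k - d k) x)
      rw [norm_one]
      linarith)
  set H : Fin n → Fin n → ℂ := fun i j => ft (ent t i j) ξ with hH
  have hHs : ∀ i j, H i j = H j i := fun i j => by
    simp only [hH]
    rw [H127.ent_symm b.sy i j]
  have hHn : ∀ i j, ‖H i j‖ ≤ a := fun i j => ft_ent_le b he ξ i j
  set T : ℝ := ‖∑ i, ∑ j, zs 1 i₀ ξ₁ i * zs (-1) i₀ ξ₂ j * H i j‖ with hT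
  have hT1 := arith1 hN0 hC₁ hX1 ha hK
  have hqf : qf t ξ (fun j => ⟨if j = i₀ then 1 else 0, p j⟩) =
      ∑ i, ∑ j, (H650.dl i₀ i + Complex.I * p i) * (H650.dl i₀ j + Complex.I * p j) * H i j := by
    have hv : ∀ j : Fin n, (⟨if j = i₀ then 1 else 0, p j⟩ : ℂ) = H650.dl i₀ j + Complex.I * p j := by
      intro j
      apply Complex.ext
      · simp only [H650.dl]
        split_ifs <;> simp
      · simp only [H650.dl]
        split_ifs <;> simp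
    rw [qf]
    refine Finset.sum_congr rfl fun i _ => Finset.sum_congr rfl fun j _ => ?_
    rw [hv i, hv j]
  rw [hqf]
  set Q : ℂ := ∑ i, ∑ j, (H650.dl i₀ i + Complex.I * p i) * (H650.dl i₀ j + Complex.I * p j) * H i j
    with hQ
  have hfin := norm_fin hHs hHn hp hX0.le hρX hρm hρm2 (zs 1 i₀ ξ₁) (zs (-1) i₀ ξ₂) zz1 zz2
  exact arith2 hN0 hC₁ hX ha hm (norm_nonneg _) hT1 hfin

end Vale.Agent.P088.LR.H150
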